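import Vale.Agent.P032.S5.H926.Nat

open Set Filter Topology

namespace Vale.Agent.Results.P032.SixClosedCovers

/-- (A) Let six closed sets `F i` cover the Euclidean plane so that the interior of no `F i`
contains two points at distance one. Then every disc of radius `6` contains a point `x` which
lies in at least four of the `F i` and no neighbourhood of which is covered by three of them, and
every disc of radius `8` contains a point `z` which lies in two different sets `F i` and `F j`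
such that an arc of the unit circle about `z` is contained in `F i ∩ F j`.
(B) The same for the closures of six open sets without unit distances whose union is dense. -/
theorem result :
    (∀ F : Fin 6 → Set (EuclideanSpace ℝ (Fin 2)), (∀ i, IsClosed (F i)) → (⋃ i, F i) = univ →
      (∀ i, ∀ x ∈ interior (F i), ∀ y ∈ interior (F i), dist x y ≠ 1) →
      ∀ o : EuclideanSpace ℝ (Fin 2),
        (∃ x, dist x o ≤ 6 ∧ 4 ≤ {i | x ∈ F i}.ncard ∧
          ∀ s : Set (Fin 6), s.ncard ≤ 3 → (⋃ i ∈ s, F i) ∉ 𝓝 x) ∧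
        (∃ i j, i ≠ j ∧ ∃ z p, dist z o ≤ 8 ∧ z ∈ F i ∧ z ∈ F j ∧ dist p z = 1 ∧
          ∀ᶠ q in 𝓝[Metric.sphere z 1] p, q ∈ F i ∧ q ∈ F j)) ∧
    (∀ U : Fin 6 → Set (EuclideanSpace ℝ (Fin 2)), (∀ i, IsOpen (U i)) →
      (∀ i, ∀ x ∈ U i, ∀ y ∈ U i, dist x y ≠ 1) → Dense (⋃ i, U i) →
      ∀ o : EuclideanSpace ℝ (Fin 2),
        (∃ x, dist x o ≤ 6 ∧ 4 ≤ {i | x ∈ closure (U i)}.ncard ∧
          ∀ s : Set (Fin 6), s.ncard ≤ 3 → (⋃ i ∈ s, closure (U i)) ∉ 𝓝 x) ∧
        (∃ i j, i ≠ j ∧ ∃ z p, dist z o ≤ 8 ∧ z ∈ closure (U i) ∧ z ∈ closure (U j) ∧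
          dist p z = 1 ∧
          ∀ᶠ q in 𝓝[Metric.sphere z 1] p, q ∈ closure (U i) ∧ q ∈ closure (U j))) := by
  have hA : ∀ F : Fin 6 → Set (EuclideanSpace ℝ (Fin 2)), (∀ i, IsClosed (F i)) →
      (⋃ i, F i) = univ →
      (∀ i, ∀ x ∈ interior (F i), ∀ y ∈ interior (F i), dist x y ≠ 1) →
      ∀ o : EuclideanSpace ℝ (Fin 2),
        (∃ x, dist x o ≤ 6 ∧ 4 ≤ {i | x ∈ F i}.ncard ∧
          ∀ s : Set (Fin 6), s.ncard ≤ 3 → (⋃ i ∈ s, F i) ∉ 𝓝 x) ∧
        (∃ i j, i ≠ j ∧ ∃ z p, dist z o ≤ 8 ∧ z ∈ F i ∧ z ∈ F j ∧ dist p z = 1 ∧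
          ∀ᶠ q in 𝓝[Metric.sphere z 1] p, q ∈ F i ∧ q ∈ F j) := by
    intro F hF hcov hfree o
    let φ : ℂ ≃ₗᵢ[ℝ] EuclideanSpace ℝ (Fin 2) := Complex.orthonormalBasisOneI.repr
    have hφ : ∀ i, IsClosed (φ ⁻¹' F i) := fun i => (hF i).preimage φ.continuous
    have hcov' : (⋃ i, φ ⁻¹' F i) = univ := by rw [← preimage_iUnion, hcov, preimage_univ]
    have hfree' : ∀ i, ∀ x ∈ interior (φ ⁻¹' F i), ∀ y ∈ interior (φ ⁻¹' F i),
        dist x y ≠ 1 := by
      intro i x hx y hy hxy
      have h1 : interior (φ ⁻¹' F i) = φ ⁻¹' interior (F i) :=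
        (φ.toHomeomorph.preimage_interior (F i)).symm
      rw [h1] at hx hy
      exact hfree i _ hx _ hy (by rw [φ.dist_map]; exact hxy)
    constructor
    · obtain ⟨x, hx, hess⟩ := Vale.Agent.P032.S5.H926.exists_ess hφ hcov' hfree' (φ.symm o)
      refine ⟨φ x, ?_, Vale.Agent.P032.S5.H926.four_of_ess hφ hcov' hess, fun s hs hn => ?_⟩
      · rw [← φ.apply_symm_apply o, φ.dist_map]
        exact hx
      · refine hess s hs ?_
        have h2 := φ.continuous.continuousAt.preimage_mem_nhds hn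
        rwa [preimage_iUnion₂] at h2
    · obtain ⟨i, j, hij, z, p, hz, hi, hj, hp, hq⟩ :=
        Vale.Agent.P032.S5.H926.exists_arc hφ hcov' hfree' (φ.symm o)
      refine ⟨i, j, hij, φ z, φ p, ?_, hi, hj, by rw [φ.dist_map]; exact hp, ?_⟩
      · rw [← φ.apply_symm_apply o, φ.dist_map]
        exact hz
      · have h2 : Tendsto φ.symm (𝓝[Metric.sphere (φ z) 1] (φ p)) (𝓝[Metric.sphere z 1] p) := by
          refine tendsto_nhdsWithin_iff.2 ⟨?_, ?_⟩
          · have h3 := φ.symm.continuous.tendsto (φ p)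
            rw [φ.symm_apply_apply] at h3
            exact h3.mono_left nhdsWithin_le_nhds
          · filter_upwards [self_mem_nhdsWithin] with q hq
            rw [Metric.mem_sphere] at hq ⊢
            rw [← φ.dist_map, φ.apply_symm_apply]
            exact hq
        filter_upwards [h2.eventually hq] with q hq
        simpa using hq
  refine ⟨hA, fun U hU hfree hd o => ?_⟩
  refine hA (fun i => closure (U i)) (fun i => isClosed_closure) ?_ (fun i x hx y hy => ?_) o
  · rw [← closure_iUnion_of_finite]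
    exact hd.closure_eq
  · -- unit distance in the interior of the closure
    intro hxy
    obtain ⟨ε, hε, hball⟩ := Metric.isOpen_iff.1 isOpen_interior x hx
    obtain ⟨y', hy', hyy⟩ := Metric.mem_closure_iff.1 (interior_subset hy) ε hε
    have hx' : x + (y' - y) ∈ closure (U i) := by
      refine interior_subset (hball ?_)
      rw [Metric.mem_ball, dist_eq_norm, add_sub_cancel_left, ← dist_eq_norm, dist_comm]
      exact hyy
    obtain ⟨δ, hδ, hball2⟩ := Metric.isOpen_iff.1 (hU i) y' hy'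
    obtain ⟨x2, hx2, hxx⟩ := Metric.mem_closure_iff.1 hx' δ hδ
    have hy2 : y' + (x2 - (x + (y' - y))) ∈ U i := by
      refine hball2 ?_
      rw [Metric.mem_ball, dist_eq_norm, add_sub_cancel_left, ← dist_eq_norm, dist_comm]
      exact hxx
    refine hfree i x2 hx2 _ hy2 ?_
    rw [dist_eq_norm] at hxy ⊢
    rw [← hxy]
    congr 1
    abel

end Vale.Agent.Results.P032.SixClosedCovers
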