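import Vale.Agent.P032.S5.H306.Final6b
import Vale.Agent.P032.Words6.H306.SixLoc
import Vale.Agent.P032.Words6.H926.Tab35
import Vale.Agent.P032.S5.H926.FiveLoc

open Set Filter Topology Metric

namespace Vale.Agent.Results.P032.SixPairsDiscs

/-- Let `V i` be six open subsets of the Euclidean plane without two points at distance one whose
union is dense (by `AllColouringsOpen` a proper 6-colouring of the plane exists if and only if there
are six such sets).  They are contained in sets `U i` which are maximal among the open sets without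
two points at distance one.

Let `U` be such a maximal family and `W` its union.  Call `z` a point of order `> n` if no `n` of
the `U i` have the union `W` near `z`, that is if `z` is in the closure of `W` minus the union of the
`U i`, `i ∈ s`, for every set `s` of at most `n` indices.  Call `x` a two-pair point if, for distinct
`a`, `b`, `c`, `d`, near `x` the set `W` is the union of `U a`, `U b`, `U c`, `U d`, but not of
fewer of these four sets, and if an arc of the unit circle about `x` consists of common boundary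
points of `U a` and `U b` near which these two sets suffice, and another arc consists of common
boundary points of `U c` and `U d` near which these two suffice.

Every closed disc of radius 26 contains a point `z` of order `> 5` such that, for some `i`, no point
of the unit circle about `z` has a neighbourhood in which `W` is the union of `U i` and another one
of the sets, or a point `z` of order `> 4` with a point of order `> 3` at distance one from `z`, or a
point `z` of order `> 3` which is a limit of two-pair points.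

Moreover there is a point `z` of the first kind, or there are two points `z`, `z'` of order `> 3` at
distance one such that `z` has order `> 4` or is a limit of two-pair points. -/
theorem result :
    (∀ V : Fin 6 → Set (EuclideanSpace ℝ (Fin 2)), (∀ i, IsOpen (V i)) →
      (∀ i, ∀ x ∈ V i, ∀ y ∈ V i, dist x y ≠ 1) → Dense (⋃ i, V i) →
      ∃ U : Fin 6 → Set (EuclideanSpace ℝ (Fin 2)), (∀ i, V i ⊆ U i) ∧ Dense (⋃ i, U i) ∧
        ∀ i, Maximal (fun W : Set (EuclideanSpace ℝ (Fin 2)) =>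
          IsOpen W ∧ ∀ x ∈ W, ∀ y ∈ W, dist x y ≠ 1) (U i)) ∧
    (∀ U : Fin 6 → Set (EuclideanSpace ℝ (Fin 2)), Dense (⋃ i, U i) →
      (∀ i, Maximal (fun W : Set (EuclideanSpace ℝ (Fin 2)) =>
        IsOpen W ∧ ∀ x ∈ W, ∀ y ∈ W, dist x y ≠ 1) (U i)) →
      (∀ o : EuclideanSpace ℝ (Fin 2), ∃ z, dist z o ≤ 26 ∧
        (((∀ s : Set (Fin 6), s.ncard ≤ 5 → z ∈ closure ((⋃ j, U j) \ ⋃ i ∈ s, U i)) ∧
          ∃ i : Fin 6, ∀ q, dist q z = 1 → ∀ j : Fin 6,
            q ∈ closure ((⋃ k, U k) \ ⋃ k ∈ ({i, j} : Set (Fin 6)), U k)) ∨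
        ((∀ s : Set (Fin 6), s.ncard ≤ 4 → z ∈ closure ((⋃ j, U j) \ ⋃ i ∈ s, U i)) ∧
          ∃ z', dist z z' = 1 ∧
            ∀ s : Set (Fin 6), s.ncard ≤ 3 → z' ∈ closure ((⋃ j, U j) \ ⋃ i ∈ s, U i)) ∨
        ((∀ s : Set (Fin 6), s.ncard ≤ 3 → z ∈ closure ((⋃ j, U j) \ ⋃ i ∈ s, U i)) ∧
          z ∈ closure {x | ∃ a b c d : Fin 6, [a, b, c, d].Nodup ∧
            x ∉ closure ((⋃ j, U j) \ ⋃ i ∈ ({a, b, c, d} : Set (Fin 6)), U i) ∧
            (∀ s ⊂ ({a, b, c, d} : Set (Fin 6)), x ∈ closure ((⋃ j, U j) \ ⋃ i ∈ s, U i)) ∧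
            ∃ p q, dist p x = 1 ∧ dist q x = 1 ∧ ∃ r > 0,
              (∀ y, dist y x = 1 → dist y p < r → y ∈ closure (U a) ∧ y ∈ closure (U b) ∧
                y ∉ closure ((⋃ j, U j) \ ⋃ i ∈ ({a, b} : Set (Fin 6)), U i)) ∧
              ∀ y, dist y x = 1 → dist y q < r → y ∈ closure (U c) ∧ y ∈ closure (U d) ∧
                y ∉ closure ((⋃ j, U j) \ ⋃ i ∈ ({c, d} : Set (Fin 6)), U i)}))) ∧
      ((∃ z, (∀ s : Set (Fin 6), s.ncard ≤ 5 → z ∈ closure ((⋃ j, U j) \ ⋃ i ∈ s, U i)) ∧
        ∃ i : Fin 6, ∀ q, dist q z = 1 → ∀ j : Fin 6,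
          q ∈ closure ((⋃ k, U k) \ ⋃ k ∈ ({i, j} : Set (Fin 6)), U k)) ∨
      ∃ z z', dist z z' = 1 ∧
        (∀ s : Set (Fin 6), s.ncard ≤ 3 → z ∈ closure ((⋃ j, U j) \ ⋃ i ∈ s, U i)) ∧
        (∀ s : Set (Fin 6), s.ncard ≤ 3 → z' ∈ closure ((⋃ j, U j) \ ⋃ i ∈ s, U i)) ∧
        ((∀ s : Set (Fin 6), s.ncard ≤ 4 → z ∈ closure ((⋃ j, U j) \ ⋃ i ∈ s, U i)) ∨
          z ∈ closure {x | ∃ a b c d : Fin 6, [a, b, c, d].Nodup ∧
            x ∉ closure ((⋃ j, U j) \ ⋃ i ∈ ({a, b, c, d} : Set (Fin 6)), U i) ∧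
            (∀ s ⊂ ({a, b, c, d} : Set (Fin 6)), x ∈ closure ((⋃ j, U j) \ ⋃ i ∈ s, U i)) ∧
            ∃ p q, dist p x = 1 ∧ dist q x = 1 ∧ ∃ r > 0,
              (∀ y, dist y x = 1 → dist y p < r → y ∈ closure (U a) ∧ y ∈ closure (U b) ∧
                y ∉ closure ((⋃ j, U j) \ ⋃ i ∈ ({a, b} : Set (Fin 6)), U i)) ∧
              ∀ y, dist y x = 1 → dist y q < r → y ∈ closure (U c) ∧ y ∈ closure (U d) ∧
                y ∉ closure ((⋃ j, U j) \ ⋃ i ∈ ({c, d} : Set (Fin 6)), U i)}))) :=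
  Vale.Agent.P032.S5.H306.result6b Vale.Agent.P032.S5.H926.no_five_loc
    Vale.Agent.P032.S5.H229.no_five
    (Vale.Agent.P032.Words6.H306.no_six_loc_of Vale.Agent.P032.Words6.H926.tab35)

end Vale.Agent.Results.P032.SixPairsDiscs
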